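import Vale.Agent.P315.C2.Area
import Vale.Agent.P315.C.FamArea
import Vale.Agent.P315.H846.Stmt2
import Vale.Agent.P315.H155.Fam2

/-!
P315, milestone 2: the area half of `Good2`, for every machine with few lanes.
-/

set_option autoImplicit false

open Finset Filter

namespace Vale.Agent.P315.H248

open Vale.Agent.P315.C Vale.Agent.P315.H95
open Vale.Agent.P315.H220 (cntQ)
open Vale.Agent.P315.H731 (av)
open Vale.Agent.P315.H659 (Ix toRnd)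

/-- The lanes of the machines of milestone 2 are few, from the bound `2 ^ (10 m 2 ^ s)`. -/
theorem lanes2 (K1 : ℕ) (hK1 : 1 ≤ K1) {c : ℝ} (hc : 0 < c) (hc1 : c ≤ 1) :
    ∀ᶠ m : ℕ in atTop, ∀ k : ℕ, 2 ≤ k → 2 ^ k ≤ K1 * m ^ 2 * 2 ^ m → ∀ cnt : ℕ → ℕ,
      (∀ s, 2 ^ s * cnt s ≤ 2 ^ (10 * m * 2 ^ s)) → ∀ S : ℕ,
      ∑ s ∈ range S, 5 * ((2 ^ s * cnt s : ℕ) : ℝ) *
        Real.exp (4 * c / ((2 ^ k - 1 : ℕ) : ℝ) ^ 2 * (2 ^ s : ℕ)) /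
          ((2 : ℝ) ^ (20 * m)) ^ 2 ^ s ≤ c ^ 2 / ((2 ^ k - 1 : ℕ) : ℝ) ^ 2 := by
  filter_upwards [H508.lanes_small K1 4 hK1 hc] with m hm k hk hkJ cnt hcnt S
  have hJ3 : (3 : ℝ) ≤ ((2 ^ k - 1 : ℕ) : ℝ) := by
    have h1 : 4 ≤ 2 ^ k := by
      calc 4 = 2 ^ 2 := by norm_num
        _ ≤ 2 ^ k := Nat.pow_le_pow_right (by norm_num) hk
    have h2 : 3 ≤ 2 ^ k - 1 := by omega
    exact_mod_cast h2
  have hJle : ((2 ^ k - 1 : ℕ) : ℝ) ≤ (H508.Jt K1 m : ℝ) := by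
    have : 2 ^ k - 1 ≤ H508.Jt K1 m := by
      unfold H508.Jt
      omega
    exact_mod_cast this
  have hlam : 4 * c / ((2 ^ k - 1 : ℕ) : ℝ) ^ 2 ≤ 1 := by
    rw [div_le_one (by positivity)]
    nlinarith
  have h1 := hm ((range S).image fun s => 2 ^ s)
    (fun h => h * cnt (Nat.log 2 h)) (4 * c / ((2 ^ k - 1 : ℕ) : ℝ) ^ 2)
    (fun h hh => by
      obtain ⟨s, _, rfl⟩ := mem_image.1 hh
      refine ⟨Nat.one_le_two_pow, ?_⟩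
      rw [Nat.log_pow (by norm_num)]
      exact hcnt s) hlam
  rw [sum_image (fun a _ b _ hab => Nat.pow_right_injective le_rfl hab)] at h1
  have h2 : c ^ 2 / (H508.Jt K1 m : ℝ) ^ 2 ≤ c ^ 2 / ((2 ^ k - 1 : ℕ) : ℝ) ^ 2 := by
    gcongr
  refine le_trans (le_of_eq ?_) (h1.trans h2)
  refine sum_congr rfl fun s _ => ?_
  rw [Nat.log_pow (by norm_num)]
  norm_num

/-- The penalty is large enough. -/
theorem pen_small {J cd D1 : ℕ} (hJ : 0 < J) (hcd : 0 < cd) (h : cd * J ^ 2 ≤ 2 * D1) :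
    Real.exp (-(4 * (1 / (cd : ℝ)) / (J : ℝ) ^ 2) * D1) ≤ 1 / 4 := by
  have hJ' : (0 : ℝ) < J := by exact_mod_cast hJ
  have hcd' : (0 : ℝ) < cd := by exact_mod_cast hcd
  have h1 : (cd : ℝ) * (J : ℝ) ^ 2 ≤ 2 * D1 := by exact_mod_cast h
  have h2 : (2 : ℝ) ≤ 4 * (1 / (cd : ℝ)) / (J : ℝ) ^ 2 * D1 := by
    rw [div_mul_eq_mul_div, le_div_iff₀ (by positivity), mul_one_div, div_mul_eq_mul_div,
      le_div_iff₀ hcd']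
    linarith
  have h3 : Real.exp (-(4 * (1 / (cd : ℝ)) / (J : ℝ) ^ 2) * D1) ≤ Real.exp (-2) :=
    Real.exp_le_exp.2 (by rw [neg_mul]; linarith)
  refine h3.trans ?_
  rw [Real.exp_neg, inv_eq_one_div]
  refine one_div_le_one_div_of_le (by norm_num) ?_
  have e1 : Real.exp 2 = Real.exp 1 * Real.exp 1 := by rw [← Real.exp_add]; norm_num
  have e2 := Real.exp_one_gt_d9
  rw [e1]
  nlinarith

/-- **Area half of `Good2`**, for every family whose machines are few. -/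
theorem area2 (K1 : ℕ) (hK1 : 1 ≤ K1) {cd : ℕ} (hcd : 0 < cd) :
    ∀ᶠ m : ℕ in atTop, ∀ k : ℕ, 2 ≤ k → 2 ^ k ≤ K1 * m ^ 2 * 2 ^ m →
      ∀ (D1 n S ℓ μ B w0 H Kc κr Cn q : ℕ) (N : ℤ) (mc : Mach) (vis hid : Leaf),
      cd * (2 ^ k - 1) ^ 2 ≤ 2 * D1 → κr ≤ Kc + 3 →
      MachOK (clsPar (20 * m) ℓ μ B w0 (2 ^ k - 1) S H (Kc + 3) D1) mc →
      (∀ s, 2 ^ s * mc.cnt s ≤ 2 ^ (10 * m * 2 ^ s)) → 0 < q → 2 ^ k ∣ q →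
      (N : ℝ) ≤ (((2 ^ k - 1 : ℕ) : ℝ) / 2 - 1 / cd) * n →
      av (fun w : Ix n (2 ^ (20 * m)) S Cn → Fin q =>
        ((rd (clsPar (20 * m) ℓ μ B w0 (2 ^ k - 1) S H (Kc + 3) D1) mc
          (toRnd (2 ^ k - 1) w) vis hid n 0 (enc κr 0 0) N).card : ℝ)) ≤
        48 * 2 ^ Kc * ((2 ^ (20 * m * n) : ℝ) ^ 2 *
          Real.exp (- ((1 / cd : ℝ) ^ 2 / ((2 ^ k - 1 : ℕ) : ℝ) ^ 2) * n)) := by
  have hcd' : (0 : ℝ) < cd := by exact_mod_cast hcd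
  have hc0 : (0 : ℝ) < 1 / cd := by positivity
  have hc1 : (1 : ℝ) / cd ≤ 1 := by
    rw [div_le_one hcd']
    exact_mod_cast hcd
  filter_upwards [lanes2 K1 hK1 hc0 hc1] with m hm k hk hkJ D1 n S ℓ μ B w0 H Kc κr Cn q N mc
    vis hid hD hκ hOK hcnt hq hkq hN
  have h4 : 4 ≤ 2 ^ k := by
    calc 4 = 2 ^ 2 := by norm_num
      _ ≤ 2 ^ k := Nat.pow_le_pow_right (by norm_num) hk
  have hJ : 0 < 2 ^ k - 1 := by omega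
  have hJ1 : 2 ^ k - 1 + 1 = 2 ^ k := by omega
  have h := C2.area_goodM (m := 20 * m) (ℓ := ℓ) (μ := μ) (B := B) (w0 := w0) (J := 2 ^ k - 1)
    (S := S) (H := H) (Kc := Kc + 3) (D1 := D1) (n := n) (Cn := Cn) (q := q) hJ (mc := mc)
    (vis := vis) (hid := hid) (Area.laneOK_of_machOK hOK) hq (by rw [hJ1]; exact hkq) hc0.le
    (pen_small hJ hcd hD) (hm k hk hkJ mc.cnt hcnt S) 0 (enc κr 0 0) (by rw [cl_enc]; exact hκ)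
    (N := N) hN
  have h1 := H731.av_mono (Ω := Ix n (2 ^ (20 * m)) S Cn → Fin q) fun w =>
    C2.card_le_wS (rd (clsPar (20 * m) ℓ μ B w0 (2 ^ k - 1) S H (Kc + 3) D1) mc
          (toRnd (2 ^ k - 1) w) vis hid n 0 (enc κr 0 0) N)
  refine h1.trans (h.trans ?_)
  have e : ((2 : ℝ) ^ (20 * m)) ^ n = 2 ^ (20 * m * n) := (pow_mul _ _ _).symm
  rw [cl_enc, e]
  have h2 : (2 : ℝ) ^ κr ≤ 8 * 2 ^ Kc := by
    calc (2 : ℝ) ^ κr ≤ 2 ^ (Kc + 3) := pow_le_pow_right₀ (by norm_num) hκ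
      _ = 8 * 2 ^ Kc := by rw [pow_add]; ring
  have h3 : (0 : ℝ) ≤ (2 ^ (20 * m * n)) ^ 2 *
      Real.exp (-((1 / (cd : ℝ)) ^ 2 / ((2 ^ k - 1 : ℕ) : ℝ) ^ 2) * n) := by positivity
  calc 6 * (2 : ℝ) ^ κr * ((2 ^ (20 * m * n)) ^ 2 *
        Real.exp (-((1 / (cd : ℝ)) ^ 2 / ((2 ^ k - 1 : ℕ) : ℝ) ^ 2) * n))
      ≤ 6 * (8 * 2 ^ Kc) * ((2 ^ (20 * m * n)) ^ 2 *
        Real.exp (-((1 / (cd : ℝ)) ^ 2 / ((2 ^ k - 1 : ℕ) : ℝ) ^ 2) * n)) :=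
        mul_le_mul_of_nonneg_right (mul_le_mul_of_nonneg_left h2 (by norm_num)) h3
    _ = _ := by ring

/-- Number of the machines: `g = 2 ^ (2 a)` doubled, `Dl = 16 ^ s m ^ 2`, `NL ≤ 26 a`,
`R = 2 ^ (a + 8)`, `Sm = 2 ^ (4 a)`, `a = m 2 ^ s`. -/
theorem cnt2_le : ∀ᶠ m : ℕ in atTop, ∀ s NL : ℕ, NL ≤ 26 * (m * 2 ^ s) →
    2 ^ s * cntQ (2 * 2 ^ (2 * m * 2 ^ s)) NL (16 ^ s * m ^ 2) (2 ^ (m * 2 ^ s + 8))
      (2 ^ (4 * m * 2 ^ s)) ≤ 2 ^ (10 * m * 2 ^ s) := by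
  filter_upwards [H508.nat_poly_le 99840 64 3] with m hm s NL hNL
  have h1 := hm s
  set N := m * 2 ^ s with hN
  have eg : 2 * m * 2 ^ s = 2 * N := by rw [hN]; ring
  have eSm : 4 * m * 2 ^ s = 4 * N := by rw [hN]; ring
  have eR : 2 ^ (N + 8) = 2 ^ N * 256 := by rw [pow_add]; norm_num
  have e10 : 10 * m * 2 ^ s = 2 * N + 2 * N + N + 4 * N + N := by rw [hN]; ring
  rw [eg, eSm, eR, e10]
  unfold cntQ
  have hg : 1 ≤ 2 ^ (2 * N) := Nat.one_le_two_pow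
  have hg1 : 2 * 2 ^ (2 * N) + 1 ≤ 3 * 2 ^ (2 * N) := by omega
  have hg2 : 2 * (2 * 2 ^ (2 * N)) + 1 ≤ 5 * 2 ^ (2 * N) := by omega
  calc 2 ^ s * ((2 * 2 ^ (2 * N) + 1) * ((2 * (2 * 2 ^ (2 * N)) + 1) * (NL *
        (16 ^ s * m ^ 2 * (2 ^ N * 256 * 2 ^ (4 * N))))))
      ≤ 2 ^ s * ((3 * 2 ^ (2 * N)) * ((5 * 2 ^ (2 * N)) * (26 * N *
        (16 ^ s * m ^ 2 * (2 ^ N * 256 * 2 ^ (4 * N)))))) := by gcongr
    _ = 2 ^ (2 * N) * 2 ^ (2 * N) * 2 ^ N * 2 ^ (4 * N) * (99840 * m ^ 3 * (2 ^ s * 2 ^ s * 16 ^ s)) := by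
        rw [hN]; ring
    _ = 2 ^ (2 * N) * 2 ^ (2 * N) * 2 ^ N * 2 ^ (4 * N) * (99840 * m ^ 3 * 64 ^ s) := by
        have e : (2 : ℕ) ^ s * 2 ^ s * 16 ^ s = 64 ^ s := by
          rw [← mul_pow, ← mul_pow]
          norm_num
        rw [e]
    _ ≤ 2 ^ (2 * N) * 2 ^ (2 * N) * 2 ^ N * 2 ^ (4 * N) * 2 ^ N := by gcongr
    _ = 2 ^ (2 * N + 2 * N + N + 4 * N + N) := by rw [pow_add, pow_add, pow_add, pow_add]

/-- The machines of `fam2` are few. -/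
theorem fam2_cnt_le : ∀ᶠ m : ℕ in atTop, ∀ s : ℕ,
    2 ^ s * (H155.famMPW m).cnt s ≤ 2 ^ (10 * m * 2 ^ s) := by
  filter_upwards [cnt2_le, eventually_ge_atTop 1] with m hm hm1 s
  unfold H155.MPW.cnt
  split_ifs with h0
  · simp
  refine hm s ((H155.famMPW m).NL s) ?_
  have h1 : 1 ≤ m * 2 ^ s := Nat.mul_pos hm1 (by positivity)
  show m * 2 ^ s + 6 ≤ 26 * (m * 2 ^ s)
  omega

/-- **Area half of `Good2` for `fam2`**: the second half of `Good2` with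
`A = 48 * 2 ^ Kc * (M ^ (2 n) * exp (- c n))`, `c = (1 / cd)² / (2 ^ k - 1)²`. -/
theorem fam2_area (K1 : ℕ) (hK1 : 1 ≤ K1) {cd : ℕ} (hcd : 0 < cd) :
    ∀ᶠ m : ℕ in atTop, ∀ k : ℕ, 2 ≤ k → 2 ^ k ≤ K1 * m ^ 2 * 2 ^ m →
      ∀ (D1 n S ℓ μ B w0 Kc κr : ℕ) (vis hid : Leaf),
      cd * (2 ^ k - 1) ^ 2 ≤ 2 * D1 → κr ≤ Kc + 3 →
      av (fun w : (H155.fam2 m k cd D1 n S ℓ μ B w0 Kc κr).Seed =>
        ((rd (H155.fam2 m k cd D1 n S ℓ μ B w0 Kc κr).P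
          (H155.fam2 m k cd D1 n S ℓ μ B w0 Kc κr).mc
          (toRnd (H155.fam2 m k cd D1 n S ℓ μ B w0 Kc κr).P.J w) vis hid
          (H155.fam2 m k cd D1 n S ℓ μ B w0 Kc κr).n 0 (enc κr 0 0)
          (H155.fam2 m k cd D1 n S ℓ μ B w0 Kc κr).N).card : ℝ)) ≤
        48 * 2 ^ Kc * ((2 ^ (20 * m * n) : ℝ) ^ 2 *
          Real.exp (- ((1 / cd : ℝ) ^ 2 / ((2 ^ k - 1 : ℕ) : ℝ) ^ 2) * n)) := by
  filter_upwards [area2 K1 hK1 hcd, fam2_cnt_le] with m hm hcnt k hk hkJ D1 n S ℓ μ B w0 Kc κr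
    vis hid hD hκ
  have hq := H155.fam2_q_pos (m := m) (k := k) (cd := cd) (D1 := D1) (n := n) (S := S) (ℓ := ℓ)
    (μ := μ) (B := B) (w0 := w0) (Kc := Kc) (κr := κr)
  have hJq := H155.fam2_J_dvd (m := m) (k := k) (cd := cd) (D1 := D1) (n := n) (S := S) (ℓ := ℓ)
    (μ := μ) (B := B) (w0 := w0) (Kc := Kc) (κr := κr)
  rw [H155.fam2_J_succ] at hJq
  exact hm k hk hkJ D1 n (S + 1) ℓ μ B w0 (famH m n S) Kc κr _ _ (famN k cd n) _ vis hid hD hκ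
    H155.machOK_fam2 hcnt hq hJq (famN_le hcd)

/-- The same in the form of `StmtQT2`. -/
theorem fam2_area' (K1 : ℕ) (hK1 : 1 ≤ K1) {cd : ℕ} (hcd : 0 < cd) :
    ∀ᶠ m : ℕ in atTop, ∀ k : ℕ, 2 ≤ k → 2 ^ k ≤ K1 * m ^ 2 * 2 ^ m →
      ∀ (D1 a₀ n S ℓ μ B w0 Kc κr : ℕ) (vis hid : Leaf), 1 ≤ a₀ → cd * 4 ^ k ≤ 2 * D1 →
      κr ≤ Kc + 3 →
      av (fun w : (H155.fam2 m k cd D1 n S ℓ μ B w0 Kc κr).Seed =>
        ((rd (H155.fam2 m k cd D1 n S ℓ μ B w0 Kc κr).P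
          (H155.fam2 m k cd D1 n S ℓ μ B w0 Kc κr).mc
          (toRnd (H155.fam2 m k cd D1 n S ℓ μ B w0 Kc κr).P.J w) vis hid
          (H155.fam2 m k cd D1 n S ℓ μ B w0 Kc κr).n 0 (enc κr 0 0)
          (H155.fam2 m k cd D1 n S ℓ μ B w0 Kc κr).N).card : ℝ)) ≤
        48 * 2 ^ (a₀ * Kc) * ((2 ^ (20 * m * n) : ℝ) ^ 2 *
          Real.exp (- ((1 / cd : ℝ) ^ 2 / ((2 ^ k - 1 : ℕ) : ℝ) ^ 2) * n)) := by
  filter_upwards [fam2_area K1 hK1 hcd] with m hm k hk hkJ D1 a₀ n S ℓ μ B w0 Kc κr vis hid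
    ha hD hκ
  have hD' : cd * (2 ^ k - 1) ^ 2 ≤ 2 * D1 := by
    refine le_trans (Nat.mul_le_mul_left _ ?_) hD
    calc (2 ^ k - 1) ^ 2 ≤ (2 ^ k) ^ 2 := Nat.pow_le_pow_left (Nat.sub_le _ _) 2
      _ = 4 ^ k := by rw [← pow_mul, mul_comm k 2, pow_mul]; norm_num
  refine (hm k hk hkJ D1 n S ℓ μ B w0 Kc κr vis hid hD' hκ).trans ?_
  have h1 : (2 : ℝ) ^ Kc ≤ 2 ^ (a₀ * Kc) :=
    pow_le_pow_right₀ (by norm_num) (Nat.le_mul_of_pos_left _ ha)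
  gcongr

end Vale.Agent.P315.H248
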