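import Vale.Agent.P315.H248.Win
import Vale.Agent.P315.C.Stmt

/-!
P315, row D-WIN over `C/Stmt.lean`: the chain and the instance `C.Inst` that belong to two strings.
-/

set_option autoImplicit false

namespace Vale.Agent.P315.H248

open Vale.Agent.P315 Vale.Agent.P315.C Vale.Agent.P315.H140 Finset
open Vale.Agent.P315.H808 (Chain)

section

variable {M ℓ μ B J S H K : ℕ} {X Y : ℕ → ℕ} {a D : ℕ → ℕ}

/-- One row with a known cell. -/
theorem best_row_read (h : PStar X Y ℓ K a D) (hμ : 0 < μ) (hd : μ ∣ ℓ) (R : Finset (ℕ × ℕ))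
    {i : ℕ} (hi : i < K) (hB : a K ≤ B) (hR : (i, a i / ℓ) ∈ R) :
    best (boxPar M ℓ μ B J S H) (known (boxPar M ℓ μ B J S H) (visW ℓ) (hidW X Y ℓ) R) i 1
      (a i) (a (i + 1)) ≤ D i + (8 * μ + 2) := by
  have h1 := cval_read (M := M) (B := B) (J := J) (S := S) (H := H) h hμ hd R 0 i
    (by simpa using hi) hB (fun τ h1 h2 => by
      have : τ = i := by simp only [pow_zero, Nat.mul_one] at h1 h2; omega
      rw [this]; exact hR)
  unfold cval at h1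
  have e : (boxPar M ℓ μ B J S H).M = M := rfl
  rw [e] at h1
  simp only [pow_zero, Nat.mul_one, range_one, sum_singleton, Nat.add_zero, Nat.one_mul] at h1
  exact h1

/-- One row, any read set. -/
theorem best_row_vis (h : PStar X Y ℓ K a D) (hμ : 0 < μ) (hd : μ ∣ ℓ) (R : Finset (ℕ × ℕ))
    {i : ℕ} (hi : i < K) (hB : a K ≤ B) :
    best (boxPar M ℓ μ B J S H) (known (boxPar M ℓ μ B J S H) (visW ℓ) (hidW X Y ℓ) R) i 1
      (a i) (a (i + 1)) ≤ ℓ + 8 * μ := by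
  have h1 := cval_vis (M := M) (B := B) (J := J) (S := S) (H := H) h hμ hd R 0 i
    (by simpa using hi) hB
  unfold cval at h1
  have e : (boxPar M ℓ μ B J S H).M = M := rfl
  rw [e] at h1
  simp only [pow_zero, Nat.mul_one, Nat.one_mul] at h1
  exact h1

/-- The chain of the real optimal path. -/
noncomputable def chainW (n : ℕ) (h : PStar X Y ℓ (M ^ n) a D) (hM : 0 < M) (hμ : 0 < μ)
    (hd : μ ∣ ℓ) (hℓ : 0 < ℓ) (hB : a (M ^ n) ≤ B) :
    Chain (boxPar M ℓ μ B J S H) (visW ℓ) (hidW X Y ℓ) n where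
  pos := a
  lab := PStar.lab a ℓ M
  d := fun i => (D i : ℝ) + (8 * μ + 2)
  w := fun _ => ℓ
  w_pos := fun _ => by exact_mod_cast hℓ
  kid := fun j i m _ _ hm => h.lab_kids hM hℓ j i hm
  cell := fun i hi R hR => by
    have h1 : (i, a i / ℓ) ∈ R := by rw [← PStar.lab_zero M i]; exact hR
    have h2 := best_row_read (M := M) (J := J) (S := S) (H := H) h hμ hd R hi hB h1
    exact_mod_cast h2
  free := fun i hi R => by
    have h2 := best_row_vis (M := M) (J := J) (S := S) (H := H) h hμ hd R hi hB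
    have h3 : (best (boxPar M ℓ μ B J S H)
        (known (boxPar M ℓ μ B J S H) (visW ℓ) (hidW X Y ℓ) R) i 1 (a i) (a (i + 1)) : ℝ) ≤
        (ℓ : ℝ) + 8 * μ := by exact_mod_cast h2
    have h4 : (0 : ℝ) ≤ D i := Nat.cast_nonneg _
    linarith

/-- The instance of the real optimal path, with loss `(8 μ + 4) / ℓ`. -/
theorem inst_chainW (n : ℕ) (h : PStar X Y ℓ (M ^ n) a D) (hM : 0 < M) (hμ : 0 < μ)
    (hd : μ ∣ ℓ) (hℓ : 0 < ℓ) (hB : a (M ^ n) ≤ B) :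
    Inst (boxPar M ℓ μ B J S H) (visW ℓ) (hidW X Y ℓ) n ((8 * μ + 4) / ℓ)
      (chainW (J := J) (S := S) (H := H) n h hM hμ hd hℓ hB) where
  pt := ⟨0, dvd_zero _, Nat.zero_le _, (⟨le_rfl, Nat.zero_le _⟩ : 0 ≤ 0 ∧ 0 ≤ 0 + ℓ)⟩
  hid_le := fun i p q hpq => by
    obtain ⟨h1, h2⟩ : p ≤ q ∧ q ≤ p + ℓ := hpq
    exact hidW_le X Y ℓ i h1 h2
  vis_le := fun _ _ _ _ => le_rfl
  adm := fun i _ => (⟨h.mono i, h.step i⟩ : a i ≤ a (i + 1) ∧ a (i + 1) ≤ a i + ℓ)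
  pos_le := fun i hi => (monotone_nat_of_le_succ h.mono hi).trans hB
  lab_eq := fun _ _ _ _ => rfl
  root := h.lab_root M n
  lower := fun R j i hj hi => by
    show ∑ r ∈ range (M ^ j), ((D (i * M ^ j + r) : ℝ) + (8 * μ + 2) - (8 * μ + 4) / ℓ * ℓ) ≤
      (cval (boxPar M ℓ μ B J S H) (visW ℓ) (hidW X Y ℓ) R j i (a (i * M ^ j))
        (a ((i + 1) * M ^ j)) : ℝ)
    have hi' : i < M ^ (n - j) := hi
    have hK : (i + 1) * M ^ j ≤ M ^ n := by
      calc (i + 1) * M ^ j ≤ M ^ (n - j) * M ^ j := Nat.mul_le_mul_right _ hi'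
        _ = M ^ n := by rw [← pow_add]; congr 1; omega
    have h1 := cval_lower (M := M) (μ := μ) (B := B) (J := J) (S := S) (H := H) h R j i hK
    have h2 : (∑ r ∈ range (M ^ j), (D (i * M ^ j + r) : ℝ)) ≤
        (cval (boxPar M ℓ μ B J S H) (visW ℓ) (hidW X Y ℓ) R j i (a (i * M ^ j))
          (a ((i + 1) * M ^ j)) : ℝ) + 2 := by exact_mod_cast h1
    have hl : (ℓ : ℝ) ≠ 0 := by
      have : (0 : ℝ) < ℓ := by exact_mod_cast hℓ
      exact this.ne'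
    have h3 : ∀ r ∈ range (M ^ j), (D (i * M ^ j + r) : ℝ) + (8 * μ + 2) - (8 * μ + 4) / ℓ * ℓ =
        (D (i * M ^ j + r) : ℝ) - 2 := by
      intro r _
      rw [div_mul_cancel₀ _ hl]
      ring
    rw [sum_congr rfl h3, sum_sub_distrib, sum_const, card_range, nsmul_eq_mul]
    have h4 : (1 : ℝ) ≤ ((M ^ j : ℕ) : ℝ) := by
      exact_mod_cast Nat.one_le_iff_ne_zero.mpr (Nat.pow_pos hM).ne'
    linarith

/-- **The instance of two strings.** `K = M ^ n` rows of length `ℓ`, `|x| + |y| ≤ K ℓ ≤ B`. -/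
theorem exists_inst (x y : List ℕ) (n : ℕ) (hM : 0 < M) (hμ : 0 < μ) (hd : μ ∣ ℓ) (hℓ : 0 < ℓ)
    (h : x.length + y.length ≤ M ^ n * ℓ) (hB : M ^ n * ℓ ≤ B) :
    ∃ C : Chain (boxPar M ℓ μ B J S H) (visW ℓ)
        (hidW (fun i => x.getD i 0) (fun i => y.getD i 0) ℓ) n,
      Inst (boxPar M ℓ μ B J S H) (visW ℓ)
        (hidW (fun i => x.getD i 0) (fun i => y.getD i 0) ℓ) n ((8 * μ + 4) / ℓ) C ∧
      (∀ i, C.w i = (boxPar M ℓ μ B J S H).ℓ) ∧ C.pos 0 = 0 ∧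
      C.pos (M ^ n) = vend x y (M ^ n * ℓ) ∧
      ∑ i ∈ range (M ^ n), C.d i ≤ (ED x y : ℝ) + 1 + M ^ n * (8 * μ + 2) := by
  obtain ⟨a, D, hP, ha, hs, _⟩ := exists_pstar_strings x y ℓ (M ^ n) h
  have hv : vend x y (M ^ n * ℓ) ≤ M ^ n * ℓ := by unfold vend; omega
  have hB' : a (M ^ n) ≤ B := by rw [ha]; omega
  refine ⟨chainW n hP hM hμ hd hℓ hB', inst_chainW n hP hM hμ hd hℓ hB', fun _ => rfl, hP.zero,
    ha, ?_⟩
  show ∑ i ∈ range (M ^ n), ((D i : ℝ) + (8 * μ + 2)) ≤ _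
  rw [sum_add_distrib, sum_const, card_range, nsmul_eq_mul]
  have h1 : (∑ i ∈ range (M ^ n), (D i : ℝ)) ≤ (ED x y : ℝ) + 1 := by exact_mod_cast hs
  push_cast
  linarith

end

end Vale.Agent.P315.H248
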