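import Vale.Agent.P315.Top.Num

/-!
P315, milestone 2, T-TOP: the numbers of the multiplicative statement.

`N` = total length, `n` levels, `S` scales, `K = 2 ^ (20 m n)` rows, `w = n / A0`,
`z = e0 * 2 ^ S + e1`, mesh `μ = N / (K * 2 ^ (w + z)) + 1`, box width `w0 = 2 ^ z * μ`, row length
`ℓ = 2 ^ (w + z) * μ = 2 ^ w * w0 = 2 * l2`, classes of the rows at most `Kc = w + 4`.
-/

set_option autoImplicit false

open Finset

namespace Vale.Agent.P315.H248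

open Vale.Agent.P315.H809 Vale.Agent.P315.Top

/-! ### Elementary facts, for every `n` -/

/-- Facts about the mesh and the rows. -/
theorem mesh_facts {N K w z μ ℓ : ℕ} (hK : 1 ≤ K) (hμ : μ = N / (K * 2 ^ (w + z)) + 1)
    (hℓ : ℓ = 2 ^ (w + z) * μ) :
    1 ≤ μ ∧ 1 ≤ ℓ ∧ N ≤ K * ℓ ∧ K * ℓ ≤ N + K * 2 ^ (w + z) ∧ μ ∣ ℓ ∧ ℓ / μ = 2 ^ (w + z) := by
  have hP : 0 < 2 ^ (w + z) := by positivity
  have hKP : 0 < K * 2 ^ (w + z) := Nat.mul_pos hK hP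
  have hμ1 : 1 ≤ μ := by rw [hμ]; exact Nat.le_add_left _ _
  have h1 := Nat.lt_mul_div_succ N hKP
  have h2 : K * 2 ^ (w + z) * (N / (K * 2 ^ (w + z))) ≤ N := Nat.mul_div_le _ _
  refine ⟨hμ1, ?_, ?_, ?_, ?_, ?_⟩
  · rw [hℓ]; exact Nat.mul_pos hP hμ1
  · rw [hℓ, ← Nat.mul_assoc, hμ]
    exact h1.le
  · rw [hℓ, ← Nat.mul_assoc, hμ, Nat.mul_add, Nat.mul_one]
    exact Nat.add_le_add_right h2 _
  · rw [hℓ]; exact Dvd.intro_left _ rfl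
  · rw [hℓ]; exact Nat.mul_div_cancel _ hμ1

/-- Facts about the half rows and the boxes: `z = z' + 1`. -/
theorem box_facts {w z μ w0 l2 ℓ : ℕ} (hz : 1 ≤ z) (hw0 : w0 = 2 ^ z * μ)
    (hl2 : l2 = 2 ^ (w + z - 1) * μ) (hℓ : ℓ = 2 ^ (w + z) * μ) (hμ1 : 1 ≤ μ) :
    ℓ = 2 * l2 ∧ ℓ = 2 ^ w * w0 ∧ μ ∣ l2 ∧ w0 ∣ ℓ ∧ 0 < w0 ∧ 2 ∣ ℓ ∧
      9 * (2 * l2) + w0 ≤ 2 ^ (w + 4) * w0 ∧ 2 ^ (Nat.log 2 ℓ - w) ≤ w0 ∧
      ℓ < 2 ^ (Nat.log 2 ℓ + 1) := by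
  have e1 : ℓ = 2 * l2 := by
    rw [hℓ, hl2, ← Nat.mul_assoc, ← pow_succ']
    congr 2
    omega
  have e2 : ℓ = 2 ^ w * w0 := by rw [hℓ, hw0, ← Nat.mul_assoc, ← pow_add]
  have hw0' : 0 < w0 := by rw [hw0]; positivity
  have h1 : 1 ≤ 2 ^ w := Nat.one_le_two_pow
  refine ⟨e1, e2, by rw [hl2]; exact Dvd.intro_left _ rfl, by rw [e2]; exact Dvd.intro_left _ rfl,
    hw0', by rw [e1]; exact Dvd.intro _ rfl, ?_, ?_, Nat.lt_pow_succ_log_self (by norm_num) _⟩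
  · rw [← e1, e2, pow_add]
    have h2 : w0 ≤ 2 ^ w * w0 := Nat.le_mul_of_pos_left _ h1
    have h3 : 2 ^ w * 2 ^ 4 * w0 = 16 * (2 ^ w * w0) := by ring
    omega
  · have hℓ0 : ℓ ≠ 0 := by rw [e2]; positivity
    have h2 : 2 ^ Nat.log 2 ℓ ≤ ℓ := Nat.pow_log_le_self 2 hℓ0
    rcases Nat.lt_or_ge (Nat.log 2 ℓ) w with h3 | h3
    · have : Nat.log 2 ℓ - w = 0 := by omega
      rw [this, pow_zero]
      exact hw0'
    · have h4 : 2 ^ w * 2 ^ (Nat.log 2 ℓ - w) = 2 ^ Nat.log 2 ℓ := by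
        rw [← pow_add]; congr 1; omega
      have h5 : 2 ^ w * 2 ^ (Nat.log 2 ℓ - w) ≤ 2 ^ w * w0 := by
        rw [h4]; exact h2.trans e2.le
      exact Nat.le_of_mul_le_mul_left h5 h1

/-! ### The side conditions for all long inputs -/

/-- The side conditions. -/
structure Side2 (m k e0 e1 A0 a0 n0 : ℕ) (C η : ℝ) (N n S w z K μ ℓ : ℕ) : Prop where
  n0_le : n0 ≤ n
  A0_le : A0 ≤ n
  dvd : 2 ^ S ∣ n
  cube : (n + 2) ^ 3 ≤ (2 ^ m) ^ 2 ^ S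
  scal : 2 ^ S ≤ 6 * (Nat.log 2 (n + 2) + 2)
  one_le_w : 1 ≤ w
  cls : a0 * (w + 4 + 1) ≤ n
  z_le : z ≤ n
  start : 10 * (w + 8) ≤ Nat.log 2 ℓ
  K_poly : 2 ^ (400 * m * 2 ^ S + 20) ≤ K
  K_k : 2 ^ k ≤ K
  K_w : 2 ^ (w + 8) ≤ K
  K_wz : 2 ^ (2 * (w + z)) ≤ K
  K_le : K ≤ ℓ
  Kl_le : K * ℓ ≤ 2 * N
  small : C * ((K : ℝ) * 2 ^ (2 * (w + z))) ≤ η * N

theorem le_rows {m n t : ℕ} (h : t ≤ 20 * m * n) : 2 ^ t ≤ 2 ^ (20 * m * n) :=
  Nat.pow_le_pow_right (by norm_num) h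

/-- **The side conditions hold for all long inputs.** -/
theorem exists_side2 {m : ℕ} (hm : 1 ≤ m) {q A0 a0 : ℕ} (hq : 3 ≤ q) (hA0 : 2 * a0 + 2 ≤ A0)
    (e0 e1 n0 k : ℕ) (C : ℝ) {η : ℝ} (hη : 0 < η) : ∃ N0 : ℕ, ∀ N : ℕ, N0 ≤ N →
      ∀ n S w z K μ ℓ : ℕ, n = lev (2 ^ m) (2 ^ (20 * m)) q N →
        S = scalN (2 ^ m) (2 ^ (20 * m)) q N → w = n / A0 → z = e0 * 2 ^ S + e1 →
        K = 2 ^ (20 * m * n) → μ = N / (K * 2 ^ (w + z)) + 1 → ℓ = 2 ^ (w + z) * μ →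
        Side2 m k e0 e1 A0 a0 n0 C η N n S w z K μ ℓ := by
  have hB2 : 2 ≤ 2 ^ m := by
    calc 2 = 2 ^ 1 := rfl
      _ ≤ 2 ^ m := Nat.pow_le_pow_right (by norm_num) hm
  have hM2 : 2 ≤ 2 ^ (20 * m) := by
    calc 2 = 2 ^ 1 := rfl
      _ ≤ 2 ^ (20 * m) := Nat.pow_le_pow_right (by norm_num) (by omega)
  -- `n` is large
  obtain ⟨N1, hN1⟩ := Par.exists_large hB2 hM2 (q := q) (by omega)
    (((n0 + A0 + 10 * a0 + k + 2 * e1 + 30 : ℕ) : ℝ)) (η := 1) one_pos 0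
  -- `2 ^ S` is much smaller than `n`
  obtain ⟨N2, hN2⟩ := Par.exists_large hB2 hM2 (q := q) (by omega)
    (((2 * e0 + 40 : ℕ) : ℝ)) (η := 1) one_pos 1
  obtain ⟨N3, hN3⟩ := exists_rows_small hB2 hM2 q 2 (by omega) (|C| + 1)
    (η := min η 1) (lt_min hη one_pos)
  refine ⟨max N1 (max N2 N3), fun N hN n S w z K μ ℓ hn hS hw hz hK hμ hℓ => ?_⟩
  have h1 := hN1 N ((le_max_left _ _).trans hN)
  have h2 := hN2 N (((le_max_left _ _).trans (le_max_right _ _)).trans hN)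
  have h3 := hN3 N (((le_max_right _ _).trans (le_max_right _ _)).trans hN)
  rw [pow_zero, mul_one, one_mul, ← hn] at h1
  rw [pow_one, one_mul, ← hn, ← hS] at h2
  have eK : ((2 ^ (20 * m)) ^ n) = K := by rw [hK, ← pow_mul]
  rw [← hn, eK] at h3
  have h1' : n0 + A0 + 10 * a0 + k + 2 * e1 + 30 ≤ n := by exact_mod_cast h1
  have h2' : (2 * e0 + 40) * 2 ^ S ≤ n := by exact_mod_cast h2
  have hS1 : 1 ≤ 2 ^ S := Nat.one_le_two_pow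
  have hSn : 2 ^ S ≤ n := by nlinarith
  have hK1 : 1 ≤ K := by rw [hK]; exact Nat.one_le_two_pow
  obtain ⟨hμ1, hℓ1, hcov, hKl, -, -⟩ := mesh_facts hK1 hμ hℓ
  have hmn : n ≤ m * n := Nat.le_mul_of_pos_left _ hm
  have h20 : 20 * n ≤ 20 * m * n := by
    rw [Nat.mul_assoc]; exact Nat.mul_le_mul_left _ hmn
  -- the widths
  have hA0' : 0 < A0 := by omega
  have hwA : A0 * w ≤ n := by rw [hw]; exact Nat.mul_div_le _ _
  have hw2 : 2 * w ≤ n := le_trans (Nat.mul_le_mul_right _ (by omega)) hwA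
  have hwa : 2 * (a0 * w) ≤ n := by
    calc 2 * (a0 * w) = (2 * a0) * w := by ring
      _ ≤ A0 * w := Nat.mul_le_mul_right _ (by omega)
      _ ≤ n := hwA
  have he0 : e0 * 2 ^ S * 2 + 40 * 2 ^ S ≤ n := by
    calc e0 * 2 ^ S * 2 + 40 * 2 ^ S = (2 * e0 + 40) * 2 ^ S := by ring
      _ ≤ n := h2'
  have hzn : z ≤ n := by omega
  have hwz : 2 * (w + z) ≤ 20 * n := by omega
  have hKwz : 2 ^ (2 * (w + z)) ≤ K := by
    rw [hK]; exact le_rows (hwz.trans h20)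
  have hP1 : (0 : ℝ) < K := by exact_mod_cast hK1
  -- `K ^ 2 ≤ N`
  have h4 : (|C| + 1) * (K : ℝ) ^ 2 ≤ η * N := h3.trans
    (mul_le_mul_of_nonneg_right (min_le_left _ _) (Nat.cast_nonneg _))
  have h5 : (|C| + 1) * (K : ℝ) ^ 2 ≤ N := h3.trans
    ((mul_le_mul_of_nonneg_right (min_le_right _ _) (Nat.cast_nonneg _)).trans (by rw [one_mul]))
  have h6 : K ^ 2 ≤ N := by
    have h7 : (K : ℝ) ^ 2 ≤ N := by
      have : 0 ≤ |C| * (K : ℝ) ^ 2 := by positivity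
      linarith
    exact_mod_cast h7
  have hKℓ : K ≤ ℓ := by
    have : K * K ≤ K * ℓ := by rw [← pow_two]; exact h6.trans hcov
    exact Nat.le_of_mul_le_mul_left this hK1
  have hPw : 2 ^ (w + z) ≤ K :=
    le_trans (Nat.pow_le_pow_right (by norm_num) (by omega)) hKwz
  constructor
  · omega
  · omega
  · rw [hS, hn]; exact two_pow_dvd_lev _ _ _ _
  · rw [hS, hn]; exact cube_le hB2 _ _ _
  · rw [hS, hn]
    exact two_pow_scalN_le_lev hB2 (by rw [← hS, ← hn]; exact hSn)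
  · rw [hw, Nat.le_div_iff_mul_le hA0']; omega
  · have : a0 * (w + 4 + 1) = a0 * w + 5 * a0 := by ring
    omega
  · exact hzn
  · have h7 : Nat.log 2 K ≤ Nat.log 2 ℓ := Nat.log_mono_right hKℓ
    rw [hK, Nat.log_pow (by norm_num)] at h7
    omega
  · rw [hK]
    refine le_rows ?_
    have h7 : 20 * m * (20 * 2 ^ S + 1) ≤ 20 * m * n := Nat.mul_le_mul_left _ (by omega)
    have h8 : 20 * m * (20 * 2 ^ S + 1) = 400 * m * 2 ^ S + 20 * m := by ring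
    omega
  · rw [hK]; exact le_rows (by omega)
  · rw [hK]; exact le_rows (by omega)
  · exact hKwz
  · exact hKℓ
  · have h7 : K * 2 ^ (w + z) ≤ K ^ 2 := by
      rw [pow_two]; exact Nat.mul_le_mul_left _ hPw
    omega
  · have h7 : (2 : ℝ) ^ (2 * (w + z)) ≤ K := by exact_mod_cast hKwz
    have h8 : (K : ℝ) * 2 ^ (2 * (w + z)) ≤ (K : ℝ) ^ 2 := by
      rw [pow_two]; exact mul_le_mul_of_nonneg_left h7 hP1.le
    have h9 : 0 ≤ (K : ℝ) * 2 ^ (2 * (w + z)) := by positivity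
    calc C * ((K : ℝ) * 2 ^ (2 * (w + z))) ≤ |C| * ((K : ℝ) * 2 ^ (2 * (w + z))) :=
          mul_le_mul_of_nonneg_right (le_abs_self C) h9
      _ ≤ |C| * (K : ℝ) ^ 2 := mul_le_mul_of_nonneg_left h8 (abs_nonneg C)
      _ ≤ (|C| + 1) * (K : ℝ) ^ 2 := by
          have : 0 ≤ (K : ℝ) ^ 2 := by positivity
          linarith
      _ ≤ η * N := h4

/-! ### The error -/

/-- **The error of the value**: `E` = edit distance, at least `N / 2 ^ w`. -/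
theorem error_mul {N K w z μ w0 : ℕ} {ε' E : ℝ} (hε : 0 < ε') (hε1 : ε' ≤ 1) (hK : 1 ≤ K)
    (hμ : μ = N / (K * 2 ^ (w + z)) + 1) (hw0 : w0 = 2 ^ z * μ) (hz : 100 ≤ ε' * 2 ^ z)
    (hsmall : 1000 * ((K : ℝ) * 2 ^ (w + z)) ≤ ε' * N) (hE : (N : ℝ) / 2 ^ w ≤ E) :
    (E + 1 + K * (8 * μ + 2) + 2 * μ) +
      8 * (ε' / 400) * (9 * (E + 1 + K * (8 * μ + 2) + 2 * μ) + K * w0) + 1 +
      (2 * μ + 1) + 1 ≤ (1 + ε') * E := by
  have hw : (0 : ℝ) < 2 ^ w := by positivity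
  have hzp : (0 : ℝ) < 2 ^ z := by positivity
  have hwz : (2 : ℝ) ^ (w + z) = 2 ^ w * 2 ^ z := pow_add _ _ _
  set a : ℝ := (N : ℝ) / 2 ^ w with ha
  have ha0 : 0 ≤ a := by positivity
  have hN : (N : ℝ) = a * 2 ^ w := by rw [ha]; field_simp
  have hK' : (1 : ℝ) ≤ K := by exact_mod_cast hK
  -- `K 2 ^ z` is small
  have e1 : 1000 * ((K : ℝ) * 2 ^ z) ≤ ε' * a := by
    rw [hwz, hN] at hsmall
    have h1 : (1000 * ((K : ℝ) * 2 ^ z)) * 2 ^ w ≤ (ε' * a) * 2 ^ w := by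
      calc (1000 * ((K : ℝ) * 2 ^ z)) * 2 ^ w = 1000 * ((K : ℝ) * (2 ^ w * 2 ^ z)) := by ring
        _ ≤ ε' * (a * 2 ^ w) := hsmall
        _ = (ε' * a) * 2 ^ w := by ring
    exact le_of_mul_le_mul_right h1 hw
  have hz1 : (1 : ℝ) ≤ 2 ^ z := one_le_pow₀ (by norm_num)
  have e2 : (K : ℝ) ≤ K * 2 ^ z := by nlinarith
  -- `K μ`
  have h1 : (K : ℝ) * 2 ^ (w + z) * μ ≤ N + K * 2 ^ (w + z) := by
    have : K * 2 ^ (w + z) * μ ≤ N + K * 2 ^ (w + z) := by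
      rw [hμ, Nat.mul_add, Nat.mul_one]
      exact Nat.add_le_add_right (Nat.mul_div_le _ _) _
    exact_mod_cast this
  have e3 : (K : ℝ) * 2 ^ z * μ ≤ a + K * 2 ^ z := by
    rw [hwz, hN] at h1
    have h2 : ((K : ℝ) * 2 ^ z * μ) * 2 ^ w ≤ (a + K * 2 ^ z) * 2 ^ w := by
      calc ((K : ℝ) * 2 ^ z * μ) * 2 ^ w = (K : ℝ) * (2 ^ w * 2 ^ z) * μ := by ring
        _ ≤ a * 2 ^ w + K * (2 ^ w * 2 ^ z) := h1
        _ = (a + K * 2 ^ z) * 2 ^ w := by ring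
    exact le_of_mul_le_mul_right h2 hw
  have e4 : (K : ℝ) * μ ≤ 11 / 1000 * (ε' * a) := by
    have h2 : (K : ℝ) * μ * 2 ^ z ≤ (11 / 1000 * (ε' * a)) * 2 ^ z := by
      have h3 : a ≤ 1 / 100 * (ε' * a) * 2 ^ z := by nlinarith
      have h4 : (K : ℝ) * 2 ^ z ≤ 1 / 1000 * (ε' * a) * 2 ^ z := by nlinarith
      nlinarith
    exact le_of_mul_le_mul_right h2 hzp
  have e5 : (K : ℝ) * w0 ≤ a + 1 / 1000 * (ε' * a) := by
    rw [hw0]; push_cast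
    calc (K : ℝ) * (2 ^ z * μ) = K * 2 ^ z * μ := by ring
      _ ≤ a + K * 2 ^ z := e3
      _ ≤ _ := by linarith
  have hμ0 : (0 : ℝ) ≤ μ := Nat.cast_nonneg _
  have e6 : (μ : ℝ) ≤ K * μ := by nlinarith
  have e7 : (K : ℝ) ≤ 1 / 1000 * (ε' * a) := by linarith
  set y : ℝ := ε' * a with hy
  have hy0 : 0 ≤ y := by positivity
  have hya : y ≤ ε' * E := mul_le_mul_of_nonneg_left hE hε.le
  have haE : ε' * a ≤ ε' * E := hya
  have hya' : y ≤ a := by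
    calc y = ε' * a := rfl
      _ ≤ 1 * a := mul_le_mul_of_nonneg_right hε1 ha0
      _ = a := one_mul a
  -- `D`
  have d1 : 1 + (K : ℝ) * (8 * μ + 2) + 2 * μ ≤ 113 / 1000 * y := by
    have : (K : ℝ) * (8 * μ + 2) = 8 * (K * μ) + 2 * K := by ring
    rw [this]
    linarith
  have d2 : 8 * (ε' / 400) * (9 * (E + 1 + K * (8 * μ + 2) + 2 * μ) + K * w0) ≤
      ε' / 50 * (9 * (E + 113 / 1000 * y) + (a + 1 / 1000 * y)) := by
    have h2 : 9 * (E + 1 + (K : ℝ) * (8 * μ + 2) + 2 * μ) + K * w0 ≤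
        9 * (E + 113 / 1000 * y) + (a + 1 / 1000 * y) := by linarith
    have h3 : 0 ≤ ε' / 50 := by positivity
    calc 8 * (ε' / 400) * (9 * (E + 1 + K * (8 * μ + 2) + 2 * μ) + K * w0)
        = ε' / 50 * (9 * (E + 1 + K * (8 * μ + 2) + 2 * μ) + K * w0) := by ring
      _ ≤ _ := mul_le_mul_of_nonneg_left h2 h3
  have d3 : ε' / 50 * (9 * (E + 113 / 1000 * y) + (a + 1 / 1000 * y)) ≤
      ε' / 50 * (12 * E) := by
    refine mul_le_mul_of_nonneg_left ?_ (by positivity)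
    linarith
  have d4 : ε' / 50 * (12 * E) = 12 / 50 * (ε' * E) := by ring
  have d5 : (1 + ε') * E = E + ε' * E := by ring
  rw [d5]
  linarith

/-- The last hypothesis but one of `error_mul`, from the side conditions with `C = 1000`. -/
theorem Side2.small' {m k e0 e1 A0 a0 n0 N n S w z K μ ℓ : ℕ} {ε' : ℝ}
    (h : Side2 m k e0 e1 A0 a0 n0 1000 ε' N n S w z K μ ℓ) :
    1000 * ((K : ℝ) * 2 ^ (w + z)) ≤ ε' * N := by
  refine le_trans ?_ h.small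
  have h1 : (2 : ℝ) ^ (w + z) ≤ 2 ^ (2 * (w + z)) :=
    pow_le_pow_right₀ (by norm_num) (by omega)
  gcongr

/-- The constant `e1`. -/
theorem exists_e1 {ε' : ℝ} (hε : 0 < ε') : ∃ e1 : ℕ, 1 ≤ e1 ∧ ∀ z : ℕ, e1 ≤ z →
    100 ≤ ε' * 2 ^ z := by
  obtain ⟨e1, h1⟩ := pow_unbounded_of_one_lt (100 / ε') (one_lt_two : (1 : ℝ) < 2)
  refine ⟨e1 + 1, by omega, fun z hz => ?_⟩
  rw [div_lt_iff₀ hε] at h1
  have h2 : (2 : ℝ) ^ e1 ≤ 2 ^ z := pow_le_pow_right₀ (by norm_num) (by omega)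
  nlinarith

/-- Above the band, the edit distance is at least `N / 2 ^ w`. -/
theorem band_le {N w C1 E : ℕ} (hC1 : 1 ≤ C1) (h : C1 * (N / 2 ^ w + 1) < E) :
    (N : ℝ) / 2 ^ w ≤ (E : ℝ) := by
  have hp : 0 < 2 ^ w := by positivity
  have h1 := Nat.lt_mul_div_succ N hp
  have h2 : N / 2 ^ w + 1 ≤ E := le_trans (Nat.le_mul_of_pos_left _ hC1) h.le
  have h3 : N ≤ 2 ^ w * E := h1.le.trans (Nat.mul_le_mul_left _ h2)
  rw [div_le_iff₀ (by positivity)]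
  have h4 : (N : ℝ) ≤ 2 ^ w * E := by exact_mod_cast h3
  linarith

/-- Mesh positions, boxes and the base of the codes. -/
theorem bound_facts {N K w z μ w0 l2 ℓ B : ℕ} (hK : 1 ≤ K) (hz : 1 ≤ z)
    (hμ : μ = N / (K * 2 ^ (w + z)) + 1) (hw0 : w0 = 2 ^ z * μ)
    (hl2 : l2 = 2 ^ (w + z - 1) * μ) (hℓ : ℓ = 2 ^ (w + z) * μ)
    (hB : B = 2 * (2 ^ (w + 4) * (w0 * K))) :
    K * l2 ≤ B ∧ K * l2 + K * l2 ≤ B ∧ K * ℓ ≤ B ∧ N ≤ B ∧ B = 32 * (K * ℓ) ∧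
      B / μ = K * 2 ^ (w + z + 5) := by
  obtain ⟨hμ1, -, hcov, -, -, -⟩ := mesh_facts hK hμ hℓ
  obtain ⟨e1, e2, -⟩ := box_facts hz hw0 hl2 hℓ hμ1
  have e3 : B = 32 * (K * ℓ) := by rw [hB, e2, pow_add]; ring
  have e4 : K * ℓ = K * l2 + K * l2 := by rw [e1]; ring
  refine ⟨by omega, by omega, by omega, by omega, e3, ?_⟩
  have e5 : B = K * 2 ^ (w + z + 5) * μ := by
    rw [e3, hℓ, pow_add (n := 5)]; ring
  rw [e5]
  exact Nat.mul_div_cancel _ hμ1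

/-! ### The number of reads -/

/-- The number of rounds is larger than eight times the mean number of reads. -/
theorem reads_mul {c A : ℝ} (hc : 0 < c) {a0 c2 A0 h C0 : ℕ} (hA0 : 2 * (a0 : ℝ) ≤ c * A0)
    (hh : 2 / c ≤ h) (hC0 : 8 * |A| * 2 ^ (a0 * c2) ≤ C0) (K n w : ℕ)
    (hw : A0 * w ≤ n) :
    8 * (A * 2 ^ (a0 * (w + c2)) * ((K : ℝ) ^ 2 * Real.exp (-c * n))) + 1 ≤
      (((C0 + 1) * (K ^ 2 / 2 ^ (n / (h + 1)) + 1) : ℕ) : ℝ) := by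
  have hl2 : Real.log 2 ≤ 1 := by
    have := Real.log_two_lt_d9; linarith
  have hl0 : 0 < Real.log 2 := Real.log_pos (by norm_num)
  have hn0 : (0 : ℝ) ≤ n := Nat.cast_nonneg _
  have hw0 : (0 : ℝ) ≤ w := Nat.cast_nonneg _
  have ha0 : (0 : ℝ) ≤ a0 := Nat.cast_nonneg _
  -- the classes
  have e0 : (2 : ℝ) ^ (a0 * (w + c2)) = 2 ^ (a0 * c2) * 2 ^ (a0 * w) := by
    have : a0 * (w + c2) = a0 * c2 + a0 * w := by ring
    rw [this, pow_add]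
  have e1 : (2 : ℝ) ^ (a0 * w) ≤ Real.exp (c / 2 * n) := by
    rw [← Real.rpow_natCast, Real.rpow_def_of_pos (by norm_num)]
    apply Real.exp_le_exp.2
    push_cast
    have h1 : (A0 : ℝ) * w ≤ n := by exact_mod_cast hw
    have h2 : (a0 : ℝ) * w ≤ c / 2 * n := by
      have h3 : 2 * (a0 : ℝ) * w ≤ c * A0 * w := mul_le_mul_of_nonneg_right hA0 hw0
      have h4 : c * (A0 * w) ≤ c * n := mul_le_mul_of_nonneg_left h1 hc.le
      linarith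
    have h5 : 0 ≤ (a0 : ℝ) * w := by positivity
    nlinarith
  have e2 : (2 : ℝ) ^ (a0 * w) * Real.exp (-c * n) ≤ Real.exp (-(c / 2) * n) := by
    calc (2 : ℝ) ^ (a0 * w) * Real.exp (-c * n) ≤ Real.exp (c / 2 * n) * Real.exp (-c * n) :=
          mul_le_mul_of_nonneg_right e1 (Real.exp_pos _).le
      _ = Real.exp (-(c / 2) * n) := by rw [← Real.exp_add]; congr 1; ring
  have hp : (0 : ℝ) < (2 : ℝ) ^ (n / (h + 1)) := by positivity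
  have e3 : Real.exp (-(c / 2) * n) ≤ 1 / (2 : ℝ) ^ (n / (h + 1)) := by
    rw [neg_mul, Real.exp_neg, ← one_div]
    apply one_div_le_one_div_of_le hp
    rw [← Real.rpow_natCast, Real.rpow_def_of_pos (by norm_num)]
    apply Real.exp_le_exp.2
    have h1 : ((n / (h + 1) : ℕ) : ℝ) ≤ (n : ℝ) / (h + 1) := by
      have := @Nat.cast_div_le ℝ _ _ _ n (h + 1)
      push_cast at this
      exact this
    have hh1 : (0 : ℝ) < (h : ℝ) + 1 := by positivity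
    have h2 : (n : ℝ) / (h + 1) ≤ c / 2 * n := by
      rw [div_le_iff₀ hh1]
      have h3 : 1 ≤ c / 2 * (h + 1) := by
        rw [div_le_iff₀ hc] at hh
        nlinarith
      nlinarith
    have h4 : (0 : ℝ) ≤ ((n / (h + 1) : ℕ) : ℝ) := Nat.cast_nonneg _
    nlinarith
  have e4 : (K : ℝ) ^ 2 / 2 ^ (n / (h + 1)) ≤ ((K ^ 2 / 2 ^ (n / (h + 1)) : ℕ) : ℝ) + 1 := by
    rw [div_le_iff₀ hp]
    have := Nat.lt_mul_div_succ (K ^ 2) (show 0 < 2 ^ (n / (h + 1)) by positivity)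
    have h3 : ((K ^ 2 : ℕ) : ℝ) <
        ((2 ^ (n / (h + 1)) * (K ^ 2 / 2 ^ (n / (h + 1)) + 1) : ℕ) : ℝ) := by
      exact_mod_cast this
    push_cast at h3 ⊢
    linarith
  set V : ℝ := ((K ^ 2 / 2 ^ (n / (h + 1)) : ℕ) : ℝ) with hV
  have hV0 : 0 ≤ V := Nat.cast_nonneg _
  have e5 : (((C0 + 1) * (K ^ 2 / 2 ^ (n / (h + 1)) + 1) : ℕ) : ℝ) = ((C0 : ℝ) + 1) * (V + 1) := by
    rw [hV]; push_cast; rfl
  have e6 : 2 ^ (a0 * w) * ((K : ℝ) ^ 2 * Real.exp (-c * n)) ≤ V + 1 := by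
    refine le_trans ?_ e4
    calc 2 ^ (a0 * w) * ((K : ℝ) ^ 2 * Real.exp (-c * n))
        = (K : ℝ) ^ 2 * (2 ^ (a0 * w) * Real.exp (-c * n)) := by ring
      _ ≤ (K : ℝ) ^ 2 * (1 / (2 : ℝ) ^ (n / (h + 1))) :=
          mul_le_mul_of_nonneg_left (e2.trans e3) (by positivity)
      _ = _ := by ring
  have e7 : 0 ≤ 2 ^ (a0 * w) * ((K : ℝ) ^ 2 * Real.exp (-c * n)) := by positivity
  rw [e5, e0]
  calc 8 * (A * (2 ^ (a0 * c2) * 2 ^ (a0 * w)) * ((K : ℝ) ^ 2 * Real.exp (-c * n))) + 1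
      = (8 * A * 2 ^ (a0 * c2)) * (2 ^ (a0 * w) * ((K : ℝ) ^ 2 * Real.exp (-c * n))) + 1 := by ring
    _ ≤ (8 * |A| * 2 ^ (a0 * c2)) * (V + 1) + 1 := by
        have h1 : 8 * A * 2 ^ (a0 * c2) ≤ 8 * |A| * 2 ^ (a0 * c2) := by
          have := le_abs_self A
          gcongr
        have h2 : 0 ≤ 8 * |A| * (2 : ℝ) ^ (a0 * c2) := by positivity
        have := mul_le_mul h1 e6 e7 h2
        linarith
    _ ≤ (C0 : ℝ) * (V + 1) + (V + 1) := by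
        have := mul_le_mul_of_nonneg_right hC0 (by linarith : 0 ≤ V + 1)
        linarith
    _ = ((C0 : ℝ) + 1) * (V + 1) := by ring

end Vale.Agent.P315.H248
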