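import Vale.Agent.P315.H54.Geo
import Vale.Agent.P315.H140.Best

/-!
P315, row D-WIN: the instance of `C/Alg.lean` (additive geometry `boxPar`) that belongs to two
strings. Row `i` = time `[i * ℓ, (i + 1) * ℓ)` on the antidiagonals, position = index in the first
string, no clipping.

* `hidW`, `visW` : hidden and visible costs; `hidW_le`, `known_le`, `hidW_le_known`.
* `cval_cert`, `cval_cert_ED` : the certified value of the root is at least the edit distance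
  (minus one for the parity), for every read set.
* `PStar`, `exists_pstar` : the real optimal path seen at the row boundaries.
* `PStar.lab_mem` : labels along the path; `PStar.cval_read`, `PStar.cval_le_vis` : values of the
  slabs when the cells of the path have been read, and in general.
-/

set_option autoImplicit false

namespace Vale.Agent.P315.H248

open Vale.Agent.P315 Vale.Agent.P315.C Vale.Agent.P315.H54 Finset

/-! ### The instance -/

/-- Hidden cost of the row `i` from `p` to `q`: the edit distance of the two windows. -/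
def hidW (X Y : ℕ → ℕ) (ℓ : ℕ) : Leaf := fun i p q => En X Y (i * ℓ) p ((i + 1) * ℓ) q

/-- Visible cost of a row: the trivial one. -/
def visW (ℓ : ℕ) : Leaf := fun _ _ _ => ℓ

/-- **(W0)** -/
theorem hidW_le (X Y : ℕ → ℕ) (ℓ i : ℕ) {p q : ℕ} (h1 : p ≤ q) (h2 : q ≤ p + ℓ) :
    hidW X Y ℓ i p q ≤ ℓ := by
  unfold hidW En
  refine (Ed_le X Y _ _ _ _).trans ?_
  have : (i + 1) * ℓ = i * ℓ + ℓ := by ring
  rw [this]
  omega

theorem hidW_lip (X Y : ℕ → ℕ) (ℓ i p q p' q' : ℕ) :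
    hidW X Y ℓ i p q ≤ hidW X Y ℓ i p' q' + 2 * Nat.dist p p' + 2 * Nat.dist q q' := by
  unfold hidW
  have h := En_lip X Y (i * ℓ) p ((i + 1) * ℓ) q p' q'
  unfold Nat.dist
  omega

/-! ### The certificate -/

theorem pre_lip (X Y : ℕ → ℕ) (i j i' j' : ℕ) :
    pre X Y i j ≤ pre X Y i' j' + Nat.dist i i' + Nat.dist j j' := by
  have h := Ed_lip X Y 0 0 i j 0 0 i' j'
  simp only [Ed, Nat.sub_zero, Nat.sub_self, Nat.add_zero] at h
  unfold pre Nat.dist
  omega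

theorem pre_shift (X Y : ℕ → ℕ) (t u u' : ℕ) :
    pre X Y u' (t - u') ≤ pre X Y u (t - u) + 2 * Nat.dist u u' := by
  have h := pre_lip X Y u' (t - u') u (t - u)
  unfold Nat.dist at h ⊢
  omega

theorem pre_row (X Y : ℕ → ℕ) (ℓ i : ℕ) {p q : ℕ} (h1 : p ≤ q) (h2 : q ≤ p + ℓ) :
    pre X Y q ((i + 1) * ℓ - q) ≤ pre X Y p (i * ℓ - p) + hidW X Y ℓ i p q := by
  have h := pre_add X Y p (i * ℓ - p) (q - p) (((i + 1) * ℓ - q) - (i * ℓ - p))
  have e : (i + 1) * ℓ = i * ℓ + ℓ := by ring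
  have e1 : p + (q - p) = q := by omega
  have e2 : i * ℓ - p + ((i + 1) * ℓ - q - (i * ℓ - p)) = (i + 1) * ℓ - q := by
    rw [e]; omega
  rw [e1, e2] at h
  exact h

/-- A route through the rows `i0, …, i0 + m - 1` from `u`. -/
theorem route_cert (X Y : ℕ → ℕ) (ℓ : ℕ) (f : ℕ → ℕ → ℕ → ℕ) (i0 u : ℕ)
    (hf : ∀ i p q, p ≤ q → q ≤ p + ℓ → hidW X Y ℓ (i0 + i) p q ≤ f i p q) (r : ℕ → ℕ × ℕ) (m : ℕ)
    (hr : ∀ i < m, (r i).1 ≤ (r i).2 ∧ (r i).2 ≤ (r i).1 + ℓ) :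
    pre X Y (prevPos u r m) ((i0 + m) * ℓ - prevPos u r m) ≤ pre X Y u (i0 * ℓ - u) +
      ∑ i ∈ range m, (2 * Nat.dist (prevPos u r i) (r i).1 + f i (r i).1 (r i).2) := by
  induction m with
  | zero => simp [prevPos]
  | succ m ih =>
    rw [Finset.sum_range_succ]
    have h1 := ih fun i hi => hr i (by omega)
    obtain ⟨h2, h3⟩ := hr m (by omega)
    have h4 := pre_shift X Y ((i0 + m) * ℓ) (prevPos u r m) (r m).1
    have h5 := pre_row X Y ℓ (i0 + m) h2 h3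
    have h6 := hf m _ _ h2 h3
    show pre X Y (r m).2 ((i0 + m + 1) * ℓ - (r m).2) ≤ _
    omega

/-- **(W1)**, with an arbitrary start: the edit distance of the prefixes at the end is at most the
one at the start plus the cost of the route. -/
theorem rcost_cert' (X Y : ℕ → ℕ) (ℓ : ℕ) (f : ℕ → ℕ → ℕ → ℕ) (i0 u : ℕ)
    (hf : ∀ i p q, p ≤ q → q ≤ p + ℓ → hidW X Y ℓ (i0 + i) p q ≤ f i p q) (r : ℕ → ℕ × ℕ)
    (m v : ℕ) (hr : ∀ i < m, (r i).1 ≤ (r i).2 ∧ (r i).2 ≤ (r i).1 + ℓ) :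
    pre X Y v ((i0 + m) * ℓ - v) ≤ pre X Y u (i0 * ℓ - u) + rcost 2 m f u v r := by
  have h1 := route_cert X Y ℓ f i0 u hf r m hr
  have h2 := pre_shift X Y ((i0 + m) * ℓ) (prevPos u r m) v
  unfold rcost
  omega

/-- **(W1)** Every route from `0` to `v` costs at least the edit distance of the prefixes. -/
theorem rcost_cert (X Y : ℕ → ℕ) (ℓ : ℕ) (f : ℕ → ℕ → ℕ → ℕ)
    (hf : ∀ i p q, p ≤ q → q ≤ p + ℓ → hidW X Y ℓ i p q ≤ f i p q) (r : ℕ → ℕ × ℕ) (m v : ℕ)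
    (hr : ∀ i < m, (r i).1 ≤ (r i).2 ∧ (r i).2 ≤ (r i).1 + ℓ) :
    pre X Y v (m * ℓ - v) ≤ rcost 2 m f 0 v r := by
  have h1 := rcost_cert' X Y ℓ f 0 0 (fun i p q h h' => by simpa using hf i p q h h') r m v hr
  simp only [Nat.zero_add, Nat.zero_mul, Nat.sub_zero] at h1
  rw [pre_zero_left, Nat.zero_add] at h1
  exact h1

section Box

variable {M ℓ μ B J S H : ℕ}

theorem exists_route (m : ℕ) : (boxPar M ℓ μ B J S H).RouteOK m fun _ => (0, 0) := by
  intro i _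
  refine ⟨dvd_zero _, dvd_zero _, Nat.zero_le _, Nat.zero_le _, ?_⟩
  show 0 ≤ 0 ∧ 0 ≤ 0 + ℓ
  omega

/-- Cheapest routes exist. -/
theorem exists_best (f : Leaf) (i0 m u v : ℕ) :
    ∃ r, (boxPar M ℓ μ B J S H).RouteOK m r ∧
      best (boxPar M ℓ μ B J S H) f i0 m u v = rcost 2 m (fun i => f (i0 + i)) u v r := by
  have hne : {x | ∃ r, (boxPar M ℓ μ B J S H).RouteOK m r ∧
      x = rcost (boxPar M ℓ μ B J S H).sh m (fun i => f (i0 + i)) u v r}.Nonempty :=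
    ⟨_, _, exists_route m, rfl⟩
  obtain ⟨r, h1, h2⟩ := Nat.sInf_mem hne
  exact ⟨r, h1, h2⟩

theorem hidW_le_known (X Y : ℕ → ℕ) (R : Finset (ℕ × ℕ)) {i p q : ℕ} (h1 : p ≤ q)
    (h2 : q ≤ p + ℓ) :
    hidW X Y ℓ i p q ≤ known (boxPar M ℓ μ B J S H) (visW ℓ) (hidW X Y ℓ) R i p q := by
  unfold known
  split_ifs with h
  · exact le_rfl
  · exact hidW_le X Y ℓ i h1 h2

theorem known_le (X Y : ℕ → ℕ) (R : Finset (ℕ × ℕ)) {i p q : ℕ} (h1 : p ≤ q)
    (h2 : q ≤ p + ℓ) :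
    known (boxPar M ℓ μ B J S H) (visW ℓ) (hidW X Y ℓ) R i p q ≤ ℓ := by
  unfold known
  split_ifs with h
  · exact hidW_le X Y ℓ i h1 h2
  · exact le_rfl

/-- **(W1) for the certified values**: the value of the root, with any read set, is at least the
edit distance of the prefixes `X[0, v)` and `Y[0, M ^ n * ℓ - v)`. -/
theorem cval_cert (X Y : ℕ → ℕ) (R : Finset (ℕ × ℕ)) (n v : ℕ) :
    pre X Y v (M ^ n * ℓ - v) ≤
      cval (boxPar M ℓ μ B J S H) (visW ℓ) (hidW X Y ℓ) R n 0 0 v := by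
  unfold cval
  obtain ⟨r, h1, h2⟩ := exists_best (M := M) (ℓ := ℓ) (μ := μ) (B := B) (J := J) (S := S) (H := H)
    (known (boxPar M ℓ μ B J S H) (visW ℓ) (hidW X Y ℓ) R)
    (0 * (boxPar M ℓ μ B J S H).M ^ n) ((boxPar M ℓ μ B J S H).M ^ n) 0 v
  rw [h2]
  refine rcost_cert X Y ℓ _ (fun i p q hp hq => ?_) r _ v fun i hi => ?_
  · simpa using hidW_le_known (M := M) (μ := μ) (B := B) (J := J) (S := S) (H := H) X Y R hp hq
  · exact (h1 i hi).2.2.2.2

/-- **(W1) for the certified values of the slabs**, with any read set. -/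
theorem cval_cert' (X Y : ℕ → ℕ) (R : Finset (ℕ × ℕ)) (j i u v : ℕ) :
    pre X Y v ((i + 1) * M ^ j * ℓ - v) ≤ pre X Y u (i * M ^ j * ℓ - u) +
      cval (boxPar M ℓ μ B J S H) (visW ℓ) (hidW X Y ℓ) R j i u v := by
  unfold cval
  obtain ⟨r, h1, h2⟩ := exists_best (M := M) (ℓ := ℓ) (μ := μ) (B := B) (J := J) (S := S) (H := H)
    (known (boxPar M ℓ μ B J S H) (visW ℓ) (hidW X Y ℓ) R)
    (i * (boxPar M ℓ μ B J S H).M ^ j) ((boxPar M ℓ μ B J S H).M ^ j) u v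
  rw [h2]
  have h3 := rcost_cert' X Y ℓ
    (fun k => known (boxPar M ℓ μ B J S H) (visW ℓ) (hidW X Y ℓ) R (i * M ^ j + k))
    (i * M ^ j) u
    (fun k p q hp hq => hidW_le_known (M := M) (μ := μ) (B := B) (J := J) (S := S) (H := H)
      X Y R hp hq) r (M ^ j) v (fun k hk => (h1 k hk).2.2.2.2)
  rw [show (i + 1) * M ^ j = i * M ^ j + M ^ j by ring]
  exact h3

/-- End position of the root. -/
def vend (x y : List ℕ) (T : ℕ) : ℕ := x.length + (T - x.length - y.length) / 2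

/-- **Certified output.** The value of the root, with any read set, is at least `ED x y - 1`. -/
theorem cval_cert_ED (x y : List ℕ) (R : Finset (ℕ × ℕ)) (n : ℕ)
    (h : x.length + y.length ≤ M ^ n * ℓ) :
    ED x y ≤ cval (boxPar M ℓ μ B J S H) (visW ℓ)
      (hidW (fun i => x.getD i 0) (fun i => y.getD i 0) ℓ) R n 0 0
      (vend x y (M ^ n * ℓ)) + 1 := by
  have h1 := cval_cert (M := M) (ℓ := ℓ) (μ := μ) (B := B) (J := J) (S := S) (H := H)
    (fun i => x.getD i 0) (fun i => y.getD i 0) R n (vend x y (M ^ n * ℓ))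
  have h2 := (En_final x y _ h).1
  rw [ED_eq_lev]
  simp only [En, Ed, Nat.sub_zero, Nat.sub_self] at h2
  exact h2.trans (Nat.add_le_add_right h1 1)

end Box

/-! ### The real optimal path at the row boundaries -/

/-- `a i` = position of the optimal path before row `i`, `D i` = its cost in row `i`. -/
structure PStar (X Y : ℕ → ℕ) (ℓ K : ℕ) (a D : ℕ → ℕ) : Prop where
  zero : a 0 = 0
  mono : ∀ i, a i ≤ a (i + 1)
  step : ∀ i, a (i + 1) ≤ a i + ℓ
  sum : ∑ i ∈ range K, D i = pre X Y (a K) (K * ℓ - a K)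
  row : ∀ i < K, ∀ p q, hidW X Y ℓ i p q ≤ D i + 2 * Nat.dist p (a i) +
    2 * Nat.dist q (a (i + 1)) + 2
  cost_le : ∀ i < K, D i ≤ ℓ + 2
  near : ∀ i ≤ K, pre X Y (a i) (i * ℓ - a i) ≤ ∑ k ∈ range i, D k + 1
  near' : ∀ i ≤ K, ∑ k ∈ range i, D k ≤ pre X Y (a i) (i * ℓ - a i) + 1

/-- **(W2)** The real optimal path. -/
theorem exists_pstar (X Y : ℕ → ℕ) (ℓ K v : ℕ) (hv : v ≤ K * ℓ) :
    ∃ a D, PStar X Y ℓ K a D ∧ a K = v := by
  have hV : Valid 0 0 (K * ℓ) v := ⟨le_rfl, hv, Nat.zero_le _, by omega⟩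
  obtain ⟨p, q, w, P⟩ := exists_realPath X Y hV.hx hV.hy
  have hend : (v - 0) + ((K * ℓ - v) - (0 - 0)) = K * ℓ := by omega
  have hK : p (K * ℓ) = v := P.pe _ (by omega)
  have hwK : w (K * ℓ) = Ed X Y 0 (0 - 0) v (K * ℓ - v) := P.we _ (by omega)
  have hmul : ∀ i : ℕ, i * ℓ ≤ (i + 1) * ℓ := fun i => Nat.mul_le_mul_right ℓ (by omega)
  have hle : ∀ i, i < K → (i + 1) * ℓ ≤ K * ℓ := fun i hi => Nat.mul_le_mul_right ℓ hi
  have hs : ∀ m : ℕ, ∑ i ∈ range m, (w ((i + 1) * ℓ) - w (i * ℓ)) = w (m * ℓ) := by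
    intro m
    induction m with
    | zero => simp [P.w0]
    | succ m ih =>
      rw [Finset.sum_range_succ, ih]
      have := P.mw (hmul m)
      omega
  have hnear : ∀ i, i ≤ K → pre X Y (p (i * ℓ)) (i * ℓ - p (i * ℓ)) ≤ w (i * ℓ) + 1 ∧
      w (i * ℓ) ≤ pre X Y (p (i * ℓ)) (i * ℓ - p (i * ℓ)) + 1 := by
    intro i hi
    have hi' : i * ℓ ≤ K * ℓ := Nat.mul_le_mul_right ℓ hi
    have h1 := P.point X Y hV (s := i * ℓ) (by omega)
    have h2 := P.cost 0 (i * ℓ) (Nat.zero_le _)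
    rw [P.w0, P.p0, P.q0, Nat.zero_add] at h2
    simp only [Ed, Nat.sub_zero] at h2
    have h3 := pre_lip X Y (p (i * ℓ)) (i * ℓ - p (i * ℓ)) (p (i * ℓ)) (q (i * ℓ))
    have h4 := pre_lip X Y (p (i * ℓ)) (q (i * ℓ)) (p (i * ℓ)) (i * ℓ - p (i * ℓ))
    have h5 : pre X Y (p (i * ℓ)) (q (i * ℓ)) = w (i * ℓ) := h2
    rw [h5] at h3 h4
    unfold Nat.dist at h3 h4
    omega
  refine ⟨fun i => p (i * ℓ), fun i => w ((i + 1) * ℓ) - w (i * ℓ),
    ⟨?_, ?_, ?_, ?_, ?_, ?_, ?_, ?_⟩, hK⟩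
  · simp only [Nat.zero_mul]; exact P.p0
  · intro i; exact P.mp (hmul i)
  · intro i
    have h := P.lip_p X Y (hmul i)
    have e : (i + 1) * ℓ = i * ℓ + ℓ := by ring
    show p ((i + 1) * ℓ) ≤ p (i * ℓ) + ℓ
    omega
  · rw [hs K, hwK]
    simp only [hK]
    simp only [Ed, pre, Nat.sub_zero]
  · intro i hi p' q'
    have h1 := (P.en_le X Y hV (hmul i) (by have := hle i hi; omega)).1
    rw [Nat.zero_add, Nat.zero_add] at h1
    have h2 := hidW_lip X Y ℓ i p' q' (p (i * ℓ)) (p ((i + 1) * ℓ))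
    have h3 := P.mw (hmul i)
    have h4 : hidW X Y ℓ i (p (i * ℓ)) (p ((i + 1) * ℓ)) =
      En X Y (i * ℓ) (p (i * ℓ)) ((i + 1) * ℓ) (p ((i + 1) * ℓ)) := rfl
    show hidW X Y ℓ i p' q' ≤ (w ((i + 1) * ℓ) - w (i * ℓ)) + 2 * Nat.dist p' (p (i * ℓ)) +
      2 * Nat.dist q' (p ((i + 1) * ℓ)) + 2
    omega
  · intro i hi
    have h1 := (P.en_le X Y hV (hmul i) (by have := hle i hi; omega)).2
    rw [Nat.zero_add, Nat.zero_add] at h1
    have h2 := P.valid X Y hV (hmul i) (by have := hle i hi; omega)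
    rw [Nat.zero_add, Nat.zero_add] at h2
    have h3 := En_le X Y h2
    have e : (i + 1) * ℓ = i * ℓ + ℓ := by ring
    show w ((i + 1) * ℓ) - w (i * ℓ) ≤ ℓ + 2
    omega
  · intro i hi
    rw [hs i]
    exact (hnear i hi).1
  · intro i hi
    rw [hs i]
    exact (hnear i hi).2

/-- **(W2) for strings**: `sum D ≤ ED + 1`. -/
theorem exists_pstar_strings (x y : List ℕ) (ℓ K : ℕ) (h : x.length + y.length ≤ K * ℓ) :
    ∃ a D, PStar (fun i => x.getD i 0) (fun i => y.getD i 0) ℓ K a D ∧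
      a K = vend x y (K * ℓ) ∧ ∑ i ∈ range K, D i ≤ ED x y + 1 ∧
      ED x y ≤ ∑ i ∈ range K, D i + 1 := by
  have hv : vend x y (K * ℓ) ≤ K * ℓ := by unfold vend; omega
  obtain ⟨a, D, hP, ha⟩ := exists_pstar (fun i => x.getD i 0) (fun i => y.getD i 0) ℓ K _ hv
  refine ⟨a, D, hP, ha, ?_, ?_⟩
  · rw [hP.sum, ha, ED_eq_lev]
    have h2 := (En_final x y _ h).2
    simp only [En, Ed, Nat.sub_zero, Nat.sub_self] at h2
    exact h2
  · rw [hP.sum, ha, ED_eq_lev]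
    have h2 := (En_final x y _ h).1
    simp only [En, Ed, Nat.sub_zero, Nat.sub_self] at h2
    exact h2

namespace PStar

variable {X Y : ℕ → ℕ} {ℓ K : ℕ} {a D : ℕ → ℕ}

theorem mono' (h : PStar X Y ℓ K a D) {i j : ℕ} (hij : i ≤ j) : a i ≤ a j :=
  monotone_nat_of_le_succ h.mono hij

theorem step' (h : PStar X Y ℓ K a D) {i j : ℕ} (hij : i ≤ j) : a j ≤ a i + (j - i) * ℓ := by
  induction j, hij using Nat.le_induction with
  | base => omega
  | succ m hm ih =>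
    have h1 := h.step m
    have e : (m + 1 - i) * ℓ = (m - i) * ℓ + ℓ := by
      rw [show m + 1 - i = (m - i) + 1 by omega]; ring
    omega

theorem le_time (h : PStar X Y ℓ K a D) (i : ℕ) : a i ≤ i * ℓ := by
  have := h.step' (Nat.zero_le i)
  rw [h.zero] at this
  simpa using this

/-- Label of the slab `i` of level `j`. -/
def lab (a : ℕ → ℕ) (ℓ M j i : ℕ) : ℕ := a (i * M ^ j) / (ℓ * M ^ j)

theorem lab_root (h : PStar X Y ℓ K a D) (M n : ℕ) : lab a ℓ M n 0 = 0 := by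
  unfold lab; rw [Nat.zero_mul, h.zero, Nat.zero_div]

/-- **(W3)** Labels `e` levels below. -/
theorem lab_desc (h : PStar X Y ℓ K a D) {M : ℕ} (hM : 0 < M) (hℓ : 0 < ℓ) (j e i : ℕ) {m : ℕ}
    (hm : m < M ^ e) :
    lab a ℓ M (j + e) i * M ^ e ≤ lab a ℓ M j (i * M ^ e + m) ∧
      lab a ℓ M j (i * M ^ e + m) < (lab a ℓ M (j + e) i + 2) * M ^ e := by
  have hT : 0 < ℓ * M ^ j := Nat.mul_pos hℓ (Nat.pow_pos hM)
  have hT' : 0 < ℓ * M ^ (j + e) := Nat.mul_pos hℓ (Nat.pow_pos hM)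
  have e0 : ℓ * M ^ (j + e) = (ℓ * M ^ j) * M ^ e := by rw [pow_add]; ring
  have e1 : (i * M ^ e + m) * M ^ j = i * M ^ (j + e) + m * M ^ j := by rw [pow_add]; ring
  unfold lab
  rw [e1]
  set P0 := a (i * M ^ (j + e)) with hP0
  have h1 : P0 ≤ a (i * M ^ (j + e) + m * M ^ j) := h.mono' (by omega)
  have h2 : a (i * M ^ (j + e) + m * M ^ j) ≤ P0 + m * M ^ j * ℓ := by
    have := h.step' (i := i * M ^ (j + e)) (j := i * M ^ (j + e) + m * M ^ j) (by omega)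
    rwa [show i * M ^ (j + e) + m * M ^ j - i * M ^ (j + e) = m * M ^ j by omega] at this
  have h3 := Nat.div_mul_le_self P0 (ℓ * M ^ (j + e))
  have h4 : P0 < (P0 / (ℓ * M ^ (j + e)) + 1) * (ℓ * M ^ (j + e)) :=
    Nat.lt_mul_of_div_lt (Nat.lt_succ_self _) hT'
  set A := P0 / (ℓ * M ^ (j + e)) with hA
  constructor
  · rw [Nat.le_div_iff_mul_le hT]
    calc A * M ^ e * (ℓ * M ^ j) = A * (ℓ * M ^ (j + e)) := by rw [e0]; ring
      _ ≤ P0 := h3
      _ ≤ _ := h1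
  · rw [Nat.div_lt_iff_lt_mul hT]
    have h5 : m * M ^ j * ℓ ≤ ℓ * M ^ (j + e) := by
      calc m * M ^ j * ℓ = m * (ℓ * M ^ j) := by ring
        _ ≤ M ^ e * (ℓ * M ^ j) := Nat.mul_le_mul_right _ hm.le
        _ = _ := by rw [e0]; ring
    calc a (i * M ^ (j + e) + m * M ^ j) ≤ P0 + m * M ^ j * ℓ := h2
      _ < (A + 1) * (ℓ * M ^ (j + e)) + ℓ * M ^ (j + e) := by omega
      _ = (A + 2) * M ^ e * (ℓ * M ^ j) := by rw [e0]; ring

/-- **(W3)** The labels of the path satisfy the rule of the children. -/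
theorem lab_kids (h : PStar X Y ℓ K a D) {M μ B J S H : ℕ} (hM : 0 < M) (hℓ : 0 < ℓ) (j i : ℕ)
    {m : ℕ} (hm : m < M) :
    lab a ℓ M j (i * M + m) ∈ (boxPar M ℓ μ B J S H).kids (j + 1) (lab a ℓ M (j + 1) i) := by
  have := h.lab_desc hM hℓ j 1 i (m := m) (by simpa using hm)
  simp only [pow_one] at this
  exact Finset.mem_Ico.mpr this

/-- Rounding the position down to the mesh does not change the label. -/
theorem lab_flr {μ : ℕ} (hμ : 0 < μ) (hd : μ ∣ ℓ) (M j i : ℕ) :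
    H140.flr μ (a (i * M ^ j)) / (ℓ * M ^ j) = lab a ℓ M j i := by
  obtain ⟨c, rfl⟩ := hd
  unfold lab
  have h0 : H140.flr μ (a (i * M ^ j)) = μ * (a (i * M ^ j) / μ) := by
    unfold H140.flr; ring
  rw [h0, Nat.mul_assoc μ c, Nat.mul_div_mul_left _ _ hμ, Nat.div_div_eq_div_mul]

/-- The label of level `0` is the cell that covers the rounded start of the row. -/
theorem lab_zero (M i : ℕ) : lab a ℓ M 0 i = a i / ℓ := by
  unfold lab; simp

end PStar

/-! ### Values of the slabs along the path -/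

section Values

variable {X Y : ℕ → ℕ} {M ℓ μ B J S H K : ℕ} {a D : ℕ → ℕ}

/-- **(W4)** If the cells of the path in the slab have been read, the value of the slab is at most
the true cost plus `8 μ + 2` per row. -/
theorem cval_read (h : PStar X Y ℓ K a D) (hμ : 0 < μ) (hd : μ ∣ ℓ) (R : Finset (ℕ × ℕ))
    (j i : ℕ) (hK : (i + 1) * M ^ j ≤ K) (hB : a K ≤ B)
    (hR : ∀ τ, i * M ^ j ≤ τ → τ < (i + 1) * M ^ j → (τ, a τ / ℓ) ∈ R) :
    cval (boxPar M ℓ μ B J S H) (visW ℓ) (hidW X Y ℓ) R j i (a (i * M ^ j))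
        (a ((i + 1) * M ^ j)) ≤
      ∑ τ ∈ range (M ^ j), D (i * M ^ j + τ) + M ^ j * (8 * μ + 2) := by
  have h1 := H140.box_cval_le (M := M) (ℓ := ℓ) (μ := μ) (B := B) (J := J) (S := S) (H := H)
    hμ hd (visW ℓ) (hidW X Y ℓ) R j i a (fun τ => D τ + 2)
    (fun τ _ hτ => ⟨h.mono τ, h.step τ, (h.mono' (by omega)).trans hB⟩) hR
    (fun τ _ hτ => by
      have := h.row τ (by omega) (H140.flr μ (a τ)) (H140.flr μ (a (τ + 1)))
      rw [Nat.dist_comm (H140.flr μ (a τ)), Nat.dist_comm (H140.flr μ (a (τ + 1)))] at this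
      omega)
  refine h1.trans ?_
  rw [Finset.sum_add_distrib, Finset.sum_const, Finset.card_range, smul_eq_mul]
  have : M ^ j * (8 * μ + 2) = M ^ j * 2 + M ^ j * (8 * μ) := by ring
  omega

/-- **(W4)** For any read set the value of a slab along the path is at most `ℓ + 8 μ` per
row. -/
theorem cval_vis (h : PStar X Y ℓ K a D) (hμ : 0 < μ) (hd : μ ∣ ℓ) (R : Finset (ℕ × ℕ))
    (j i : ℕ) (hK : (i + 1) * M ^ j ≤ K) (hB : a K ≤ B) :
    cval (boxPar M ℓ μ B J S H) (visW ℓ) (hidW X Y ℓ) R j i (a (i * M ^ j))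
        (a ((i + 1) * M ^ j)) ≤ M ^ j * (ℓ + 8 * μ) := by
  have e : (i + 1) * M ^ j = i * M ^ j + M ^ j := by ring
  unfold cval
  rw [e]
  have h1 := H140.box_best_le (M := M) (ℓ := ℓ) (μ := μ) (B := B) (J := J) (S := S) (H := H)
    hμ hd (known (boxPar M ℓ μ B J S H) (visW ℓ) (hidW X Y ℓ) R) (i * M ^ j) (M ^ j) a
    (fun _ => ℓ) (fun τ hτ => ⟨h.mono _, h.step _, (h.mono' (by omega)).trans hB⟩)
    (fun τ _ => by
      have h2 := H140.flr_adm hd (h.mono (i * M ^ j + τ)) (h.step (i * M ^ j + τ))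
      have h3 := known_le (M := M) (μ := μ) (B := B) (J := J) (S := S) (H := H) X Y R
        (i := i * M ^ j + τ) h2.1 h2.2
      omega)
  refine h1.trans ?_
  rw [Finset.sum_const, Finset.card_range, smul_eq_mul]
  have : M ^ j * (ℓ + 8 * μ) = M ^ j * ℓ + M ^ j * (8 * μ) := by ring
  omega

/-- **(W5)** For any read set the value of a slab along the path is at least its true cost minus
two. -/
theorem cval_lower (h : PStar X Y ℓ K a D) (R : Finset (ℕ × ℕ)) (j i : ℕ)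
    (hK : (i + 1) * M ^ j ≤ K) :
    ∑ τ ∈ range (M ^ j), D (i * M ^ j + τ) ≤
      cval (boxPar M ℓ μ B J S H) (visW ℓ) (hidW X Y ℓ) R j i (a (i * M ^ j))
        (a ((i + 1) * M ^ j)) + 2 := by
  have e : (i + 1) * M ^ j = i * M ^ j + M ^ j := by ring
  have h1 := cval_cert' (M := M) (ℓ := ℓ) (μ := μ) (B := B) (J := J) (S := S) (H := H) X Y R j i
    (a (i * M ^ j)) (a ((i + 1) * M ^ j))
  have h2 := h.near (i * M ^ j) (by omega)
  have h3 := h.near' ((i + 1) * M ^ j) hK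
  have h4 : ∑ k ∈ range ((i + 1) * M ^ j), D k =
      ∑ k ∈ range (i * M ^ j), D k + ∑ τ ∈ range (M ^ j), D (i * M ^ j + τ) := by
    rw [e, Finset.sum_range_add]
  omega

/-- The value of the root with everything read: `ED + 1 + (8 μ + 2) M ^ n`. -/
theorem cval_root_read {x y : List ℕ}
    (h : PStar (fun i => x.getD i 0) (fun i => y.getD i 0) ℓ K a D)
    (hμ : 0 < μ) (hd : μ ∣ ℓ) (R : Finset (ℕ × ℕ)) (n : ℕ) (hK : K = M ^ n) (hB : a K ≤ B)
    (hv : a K = vend x y (K * ℓ)) (hs : ∑ i ∈ range K, D i ≤ ED x y + 1)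
    (hR : ∀ τ < K, (τ, a τ / ℓ) ∈ R) :
    cval (boxPar M ℓ μ B J S H) (visW ℓ)
      (hidW (fun i => x.getD i 0) (fun i => y.getD i 0) ℓ) R n 0 0 (vend x y (M ^ n * ℓ)) ≤
      ED x y + 1 + M ^ n * (8 * μ + 2) := by
  subst hK
  have h1 := cval_read (M := M) (B := B) (J := J) (S := S) (H := H) h hμ hd R n 0
    (by simp) hB (fun τ _ hτ => hR τ (by simpa using hτ))
  simp only [Nat.zero_mul, Nat.zero_add, Nat.one_mul, h.zero] at h1
  rw [← hv]
  exact h1.trans (Nat.add_le_add_right hs _)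

end Values

end Vale.Agent.P315.H248
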